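import Vale.Agent.P086.Final

namespace Vale.Agent.Results.P086.Iso45

/-- The free group factors of ranks four and five are star-isomorphic. -/
theorem result {H K : Type*} [NormedAddCommGroup H] [InnerProductSpace ℂ H] [CompleteSpace H]
    [NormedAddCommGroup K] [InnerProductSpace ℂ K] [CompleteSpace K]
    (b : HilbertBasis (FreeGroup (Fin 4)) ℂ H) (c : HilbertBasis (FreeGroup (Fin 5)) ℂ K) :
    (∀ g, ∃ u : H →L[ℂ] H, ∀ h, u (b h) = b (g * h)) ∧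
    (∀ g, ∃ u : K →L[ℂ] K, ∀ h, u (c h) = c (g * h)) ∧
    Nonempty (StarSubalgebra.centralizer ℂ (SetLike.coe (StarSubalgebra.centralizer ℂ
        {u : H →L[ℂ] H | ∃ g, ∀ h, u (b h) = b (g * h)})) ≃⋆ₐ[ℂ]
      StarSubalgebra.centralizer ℂ (SetLike.coe (StarSubalgebra.centralizer ℂ
        {u : K →L[ℂ] K | ∃ g, ∀ h, u (c h) = c (g * h)}))) := by
  obtain ⟨h1, ⟨α⟩⟩ := Vale.Agent.P086.basis_iso b
  obtain ⟨h2, ⟨β⟩⟩ := Vale.Agent.P086.basis_iso c
  obtain ⟨γ⟩ := Vale.Agent.P086.iso_four_five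
  exact ⟨h1, h2, ⟨(α.trans γ).trans β.symm⟩⟩

end Vale.Agent.Results.P086.Iso45
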